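import Vale.Agent.P235.R2.H718.DescSpec
import Vale.Agent.P235.R2.H341.W1

/-!
P235 (helper721).  The union of `m` sets costs a factor `log m`: the literal rows.
-/

set_option autoImplicit false

namespace Vale.Agent.P235.Kpr

open Vale.Agent.P235

/-- (Z1) the mean number of records of a random order -/
def RowRec : Prop :=
  ∀ (m : ℕ) (e : Fin m → ℝ),
    (∑ π : Equiv.Perm (Fin m), ({i | ∀ j, π j < π i → e i < e j}.ncard : ℝ)) ≤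
      (m.factorial : ℝ) * (1 + Real.log m)

/-- (Z2) the first element of `U₂` in a random order lies in `U₁` -/
def RowFirst : Prop :=
  ∀ (m : ℕ) (U₁ U₂ : Set (Fin m)), U₁ ⊆ U₂ →
    (m.factorial : ℝ) * U₁.ncard ≤ U₂.ncard *
      ({π : Equiv.Perm (Fin m) | ∃ i ∈ U₁, ∀ j ∈ U₂, π i ≤ π j}.ncard : ℝ)

/-- (Z3) one set `g = 0`, active where `g < M` -/
def RowOne : Prop :=
  ∀ (V : Type) [Finite V] (G : SimpleGraph V) (ℓ : Sym2 V → ℝ), G.Connected →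
    (∀ e ∈ G.edgeSet, 0 < ℓ e) → ∀ (g M : V → ℝ) (F : V → V → ℝ) (C ε : ℝ), 0 < C → 0 < ε →
    (∀ u v, G.Adj u v → |g u - g v| ≤ ℓ s(u, v)) → (∀ u v, G.Adj u v → |M u - M v| ≤ ℓ s(u, v)) →
    IsL1 F → (∀ u v, G.Adj u v → F u v ≤ C * ℓ s(u, v)) →
    ∃ σ : V → V → ℝ, IsL1 σ ∧ (∀ u v, G.Adj u v → σ u v ≤ (96 * C + 300) * ℓ s(u, v)) ∧
      (∀ u v, M u ≤ g u → M v ≤ g v → σ u v ≤ (192 * C + 600) * ε) ∧
      ∀ x y δ, 0 < δ → g x ≤ δ / 48 → δ / 24 ≤ M x → (g y ≤ δ / 12 → δ / 24 ≤ F x y) →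
        δ / 400000 ≤ σ x y

/-- (Z4) the union of `m` sets of distortion `B` in a plane graph -/
def RowUnion : Prop :=
  ∃ C : ℝ, 1 ≤ C ∧ ∀ (V : Type) [Finite V] (G : SimpleGraph V) (ℓ : Sym2 V → ℝ), G.Connected →
    (∃ σ : Equiv.Perm G.Dart, PlaneMap G σ) → (∀ e ∈ G.edgeSet, 0 < ℓ e) →
    ∀ (m : ℕ) (X : Fin m → Set V) (B : ℝ), 1 ≤ B →
    (∀ i, EmbedsL1 (fun u v : X i => pathDist G ℓ u v) B) →
    EmbedsL1 (fun x y : ↥(⋃ i, X i) => pathDist G ℓ x y) (C * B * Real.log ((m : ℝ) + 2))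

end Vale.Agent.P235.Kpr
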