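import Vale.Agent.P235.R2.H582.KprSpec

/-!
P235 (helper721).  The row `RowKPR` of helper582: random partitions of a plane graph, from
potentials, the count of shifts and the diameter bound.
-/

set_option autoImplicit false

namespace Vale.Agent.P235.R2.H721

open Vale.Agent.P235 Vale.Agent.P235.Kpr

/-- the edges of length at most `Δ` -/
def short {V : Type} (G : SimpleGraph V) (ℓ : Sym2 V → ℝ) (Δ : ℝ) : SimpleGraph V where
  Adj u v := G.Adj u v ∧ ℓ s(u, v) ≤ Δ
  symm := ⟨fun _ _ h => ⟨h.1.symm, by rw [Sym2.eq_swap]; exact h.2⟩⟩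
  loopless := ⟨fun _ h => h.1.ne rfl⟩

theorem ncard_sum {α : Type} [Fintype α] (p : α → Prop) [DecidablePred p] :
    (({x | p x} : Set α).ncard : ℝ) = ∑ x, if p x then (1 : ℝ) else 0 := by
  rw [Set.ncard_eq_toFinset_card', Set.toFinset_ofPred, Finset.card_filter]
  push_cast
  rfl

theorem rowKPR (h2 : RowPot) (h3 : RowCount) (h5 : RowDiam) : RowKPR := by
  intro V _ G ℓ hc hP hℓ Δ N hΔ hN
  classical
  have hH : short G ℓ Δ ≤ G := fun _ _ h => h.1
  have hpos : ∀ {K : SimpleGraph V}, K ≤ G → ∀ e ∈ K.edgeSet, 0 < ℓ e := fun hK e he =>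
    hℓ e (SimpleGraph.edgeSet_mono hK he)
  have hch : ∀ (K : SimpleGraph V) (f : V → ℝ) (θ : ℝ), chop K f Δ θ ≤ K :=
    fun K f θ _ _ h => h.1
  obtain ⟨f₁, r₁, p₁⟩ := h2 V (short G ℓ Δ) ℓ (hpos hH)
  have e2 : ∀ a : Fin N, ∃ f r, Pot (chop (short G ℓ Δ) f₁ Δ ((a : ℕ) * Δ / N)) ℓ f r :=
    fun a => h2 V _ ℓ (hpos ((hch _ _ _).trans hH))
  choose f₂ r₂ p₂ using e2
  have e3 : ∀ a b : Fin N, ∃ f r, Pot (chop (chop (short G ℓ Δ) f₁ Δ ((a : ℕ) * Δ / N)) (f₂ a) Δ
      ((b : ℕ) * Δ / N)) ℓ f r :=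
    fun a b => h2 V _ ℓ (hpos ((hch _ _ _).trans ((hch _ _ _).trans hH)))
  choose f₃ r₃ p₃ using e3
  let K : Fin N × Fin N × Fin N → SimpleGraph V := fun ω =>
    chop (chop (chop (short G ℓ Δ) f₁ Δ ((ω.1 : ℕ) * Δ / N)) (f₂ ω.1) Δ ((ω.2.1 : ℕ) * Δ / N))
      (f₃ ω.1 ω.2.1) Δ ((ω.2.2 : ℕ) * Δ / N)
  have hout : ∀ ω v, (K ω).connectedComponentMk (Quot.out ((K ω).connectedComponentMk v)) =
      (K ω).connectedComponentMk v := fun ω v => Quot.out_eq _
  refine ⟨fun ω v => Quot.out ((K ω).connectedComponentMk v), ?_, ?_⟩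
  · intro ω u v huv
    have hr : (K ω).Reachable u v := by
      apply SimpleGraph.ConnectedComponent.exact
      have h1 := hout ω u
      have h2 := hout ω v
      have h3 : Quot.out ((K ω).connectedComponentMk u) =
        Quot.out ((K ω).connectedComponentMk v) := huv
      rw [← h1, ← h2, h3]
    exact h5 V G (short G ℓ Δ) ℓ Δ _ _ _ f₁ (f₂ ω.1) (f₃ ω.1 ω.2.1) r₁ (r₂ ω.1) (r₃ ω.1 ω.2.1)
      hc hP hℓ hH hΔ (fun _ _ h => h.2) p₁ (p₂ _) (p₃ _ _) u v hr
  · intro u v huv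
    have hNR : (0 : ℝ) < N := by exact_mod_cast hN
    have hl0 : 0 < ℓ s(u, v) := hℓ _ huv
    by_cases hs : ℓ s(u, v) ≤ Δ
    · have hcnt : ∀ f : V → ℝ, |f u - f v| ≤ ℓ s(u, v) →
          ∑ k : Fin N, (if slab f Δ ((k : ℕ) * Δ / N) u ≠ slab f Δ ((k : ℕ) * Δ / N) v then (1 : ℝ)
            else 0) ≤ N * ℓ s(u, v) / Δ + 1 := by
        intro f hf
        have := h3 (f u) (f v) (ℓ s(u, v)) Δ N hf hΔ hN
        rw [ncard_sum] at this
        exact this
      set q : ℝ := N * ℓ s(u, v) / Δ + 1 with hq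
      have hq0 : 0 ≤ q := by positivity
      have hadj : (short G ℓ Δ).Adj u v := ⟨huv, hs⟩
      have key : ∀ ω : Fin N × Fin N × Fin N,
          (if Quot.out ((K ω).connectedComponentMk u) ≠ Quot.out ((K ω).connectedComponentMk v)
            then (1 : ℝ) else 0) ≤
          (if slab f₁ Δ ((ω.1 : ℕ) * Δ / N) u ≠ slab f₁ Δ ((ω.1 : ℕ) * Δ / N) v then (1 : ℝ)
            else 0) +
          (if (chop (short G ℓ Δ) f₁ Δ ((ω.1 : ℕ) * Δ / N)).Adj u v then
            (if slab (f₂ ω.1) Δ ((ω.2.1 : ℕ) * Δ / N) u ≠ slab (f₂ ω.1) Δ ((ω.2.1 : ℕ) * Δ / N) v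
              then (1 : ℝ) else 0) else 0) +
          (if (chop (chop (short G ℓ Δ) f₁ Δ ((ω.1 : ℕ) * Δ / N)) (f₂ ω.1) Δ
              ((ω.2.1 : ℕ) * Δ / N)).Adj u v then
            (if slab (f₃ ω.1 ω.2.1) Δ ((ω.2.2 : ℕ) * Δ / N) u ≠
              slab (f₃ ω.1 ω.2.1) Δ ((ω.2.2 : ℕ) * Δ / N) v then (1 : ℝ) else 0) else 0) := by
        intro ω
        have n1 : (0 : ℝ) ≤ (if slab f₁ Δ ((ω.1 : ℕ) * Δ / N) u ≠
            slab f₁ Δ ((ω.1 : ℕ) * Δ / N) v then (1 : ℝ) else 0) := by split_ifs <;> norm_num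
        have n2 : (0 : ℝ) ≤ (if (chop (short G ℓ Δ) f₁ Δ ((ω.1 : ℕ) * Δ / N)).Adj u v then
            (if slab (f₂ ω.1) Δ ((ω.2.1 : ℕ) * Δ / N) u ≠ slab (f₂ ω.1) Δ ((ω.2.1 : ℕ) * Δ / N) v
              then (1 : ℝ) else 0) else 0) := by split_ifs <;> norm_num
        have n3 : (0 : ℝ) ≤ (if (chop (chop (short G ℓ Δ) f₁ Δ ((ω.1 : ℕ) * Δ / N)) (f₂ ω.1) Δ
              ((ω.2.1 : ℕ) * Δ / N)).Adj u v then
            (if slab (f₃ ω.1 ω.2.1) Δ ((ω.2.2 : ℕ) * Δ / N) u ≠
              slab (f₃ ω.1 ω.2.1) Δ ((ω.2.2 : ℕ) * Δ / N) v then (1 : ℝ) else 0) else 0) := by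
          split_ifs <;> norm_num
        by_cases c1 : slab f₁ Δ ((ω.1 : ℕ) * Δ / N) u ≠ slab f₁ Δ ((ω.1 : ℕ) * Δ / N) v
        · rw [if_pos c1]
          have : (if Quot.out ((K ω).connectedComponentMk u) ≠
            Quot.out ((K ω).connectedComponentMk v) then (1 : ℝ) else 0) ≤ 1 := by
            split_ifs <;> norm_num
          linarith
        have a1 : (chop (short G ℓ Δ) f₁ Δ ((ω.1 : ℕ) * Δ / N)).Adj u v :=
          ⟨hadj, not_not.1 c1⟩
        by_cases c2 : slab (f₂ ω.1) Δ ((ω.2.1 : ℕ) * Δ / N) u ≠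
            slab (f₂ ω.1) Δ ((ω.2.1 : ℕ) * Δ / N) v
        · rw [if_pos a1, if_pos c2]
          have : (if Quot.out ((K ω).connectedComponentMk u) ≠
            Quot.out ((K ω).connectedComponentMk v) then (1 : ℝ) else 0) ≤ 1 := by
            split_ifs <;> norm_num
          linarith
        have a2 : (chop (chop (short G ℓ Δ) f₁ Δ ((ω.1 : ℕ) * Δ / N)) (f₂ ω.1) Δ
              ((ω.2.1 : ℕ) * Δ / N)).Adj u v := ⟨a1, not_not.1 c2⟩
        by_cases c3 : slab (f₃ ω.1 ω.2.1) Δ ((ω.2.2 : ℕ) * Δ / N) u ≠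
              slab (f₃ ω.1 ω.2.1) Δ ((ω.2.2 : ℕ) * Δ / N) v
        · rw [if_pos a2, if_pos c3]
          have : (if Quot.out ((K ω).connectedComponentMk u) ≠
            Quot.out ((K ω).connectedComponentMk v) then (1 : ℝ) else 0) ≤ 1 := by
            split_ifs <;> norm_num
          linarith
        have a3 : (K ω).Adj u v := ⟨a2, not_not.1 c3⟩
        have hcc : (K ω).connectedComponentMk u = (K ω).connectedComponentMk v :=
          SimpleGraph.ConnectedComponent.sound a3.reachable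
        rw [if_neg (by rw [hcc]; simp)]
        linarith
      have hsum : (({ω | Quot.out ((K ω).connectedComponentMk u) ≠
          Quot.out ((K ω).connectedComponentMk v)} : Set (Fin N × Fin N × Fin N)).ncard : ℝ) ≤
          3 * (N : ℝ) ^ 2 * q := by
        rw [ncard_sum]
        refine (Finset.sum_le_sum fun ω _ => key ω).trans ?_
        rw [Finset.sum_add_distrib, Finset.sum_add_distrib]
        simp only [Fintype.sum_prod_type]
        have s1 : ∑ a : Fin N, ∑ _b : Fin N, ∑ _c : Fin N,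
            (if slab f₁ Δ ((a : ℕ) * Δ / N) u ≠ slab f₁ Δ ((a : ℕ) * Δ / N) v then (1 : ℝ)
              else 0) ≤ (N : ℝ) ^ 2 * q := by
          simp only [Finset.sum_const, Finset.card_univ, Fintype.card_fin, nsmul_eq_mul]
          rw [← Finset.mul_sum, ← Finset.mul_sum]
          have := hcnt f₁ (p₁.lip u v hadj)
          nlinarith [mul_le_mul_of_nonneg_left this (by positivity : (0 : ℝ) ≤ N * N)]
        have s2 : ∑ a : Fin N, ∑ b : Fin N, ∑ _c : Fin N,
            (if (chop (short G ℓ Δ) f₁ Δ ((a : ℕ) * Δ / N)).Adj u v then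
            (if slab (f₂ a) Δ ((b : ℕ) * Δ / N) u ≠ slab (f₂ a) Δ ((b : ℕ) * Δ / N) v
              then (1 : ℝ) else 0) else 0) ≤ (N : ℝ) ^ 2 * q := by
          have : ∀ a : Fin N, ∑ b : Fin N, ∑ _c : Fin N,
            (if (chop (short G ℓ Δ) f₁ Δ ((a : ℕ) * Δ / N)).Adj u v then
            (if slab (f₂ a) Δ ((b : ℕ) * Δ / N) u ≠ slab (f₂ a) Δ ((b : ℕ) * Δ / N) v
              then (1 : ℝ) else 0) else 0) ≤ N * q := by
            intro a
            simp only [Finset.sum_const, Finset.card_univ, Fintype.card_fin, nsmul_eq_mul]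
            rw [← Finset.mul_sum]
            refine mul_le_mul_of_nonneg_left ?_ hNR.le
            by_cases ha : (chop (short G ℓ Δ) f₁ Δ ((a : ℕ) * Δ / N)).Adj u v
            · simp only [if_pos ha]
              exact hcnt (f₂ a) ((p₂ a).lip u v ha)
            · simp only [if_neg ha, Finset.sum_const_zero]
              exact hq0
          refine (Finset.sum_le_sum fun a _ => this a).trans ?_
          simp only [Finset.sum_const, Finset.card_univ, Fintype.card_fin, nsmul_eq_mul]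
          nlinarith
        have s3 : ∑ a : Fin N, ∑ b : Fin N, ∑ c : Fin N,
            (if (chop (chop (short G ℓ Δ) f₁ Δ ((a : ℕ) * Δ / N)) (f₂ a) Δ
              ((b : ℕ) * Δ / N)).Adj u v then
            (if slab (f₃ a b) Δ ((c : ℕ) * Δ / N) u ≠
              slab (f₃ a b) Δ ((c : ℕ) * Δ / N) v then (1 : ℝ) else 0) else 0) ≤
            (N : ℝ) ^ 2 * q := by
          have : ∀ a b : Fin N, ∑ c : Fin N,
            (if (chop (chop (short G ℓ Δ) f₁ Δ ((a : ℕ) * Δ / N)) (f₂ a) Δ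
              ((b : ℕ) * Δ / N)).Adj u v then
            (if slab (f₃ a b) Δ ((c : ℕ) * Δ / N) u ≠
              slab (f₃ a b) Δ ((c : ℕ) * Δ / N) v then (1 : ℝ) else 0) else 0) ≤ q := by
            intro a b
            by_cases ha : (chop (chop (short G ℓ Δ) f₁ Δ ((a : ℕ) * Δ / N)) (f₂ a) Δ
              ((b : ℕ) * Δ / N)).Adj u v
            · simp only [if_pos ha]
              exact hcnt (f₃ a b) ((p₃ a b).lip u v ha)
            · simp only [if_neg ha, Finset.sum_const_zero]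
              exact hq0
          refine (Finset.sum_le_sum fun a _ => Finset.sum_le_sum fun b _ => this a b).trans ?_
          simp only [Finset.sum_const, Finset.card_univ, Fintype.card_fin, nsmul_eq_mul]
          nlinarith
        linarith
      refine hsum.trans (le_of_eq ?_)
      rw [hq]
      field_simp
    · push Not at hs
      have h1 : (({ω | Quot.out ((K ω).connectedComponentMk u) ≠
          Quot.out ((K ω).connectedComponentMk v)} : Set (Fin N × Fin N × Fin N)).ncard : ℝ) ≤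
          (N : ℝ) ^ 3 := by
        have := Set.ncard_le_card ({ω | Quot.out ((K ω).connectedComponentMk u) ≠
          Quot.out ((K ω).connectedComponentMk v)} : Set (Fin N × Fin N × Fin N))
        rw [Nat.card_eq_fintype_card, Fintype.card_prod, Fintype.card_prod, Fintype.card_fin] at this
        calc _ ≤ ((N * (N * N) : ℕ) : ℝ) := by exact_mod_cast this
          _ = (N : ℝ) ^ 3 := by push_cast; ring
      refine h1.trans ?_
      have h2 : 1 ≤ ℓ s(u, v) / Δ := by rw [le_div_iff₀ hΔ]; linarith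
      have h3 : (0 : ℝ) ≤ 1 / N := by positivity
      nlinarith [pow_pos hNR 3]

end Vale.Agent.P235.R2.H721
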