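import Vale.Agent.P235.R2.H718.DescSpec
import Vale.Agent.P235.R2.H721.Kpr6
import Vale.Agent.P235.R2.RED.Bags2
import Vale.Agent.P235.Comp.PathSum

/-!
P235 (helper721).  The row `RowPad` of helper718: random partitions of a plane graph with padding.
-/

set_option autoImplicit false

namespace Vale.Agent.P235.R2.H721

open Vale.Agent.P235 Vale.Agent.P235.Kpr

theorem sum_nonneg_walk {V : Type} {K : SimpleGraph V} {ℓ : Sym2 V → ℝ}
    (hℓ : ∀ e ∈ K.edgeSet, 0 < ℓ e) {a b : V} (w : K.Walk a b) : 0 ≤ (w.edges.map ℓ).sum := by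
  refine List.sum_nonneg fun x hx => ?_
  obtain ⟨e, he, rfl⟩ := List.mem_map.1 hx
  exact (hℓ e (w.edges_subset_edgeSet he)).le

theorem lip_support {V : Type} {K : SimpleGraph V} {ℓ : Sym2 V → ℝ} {f : V → ℝ}
    (hℓ : ∀ e ∈ K.edgeSet, 0 < ℓ e) (hf : ∀ u v, K.Adj u v → |f u - f v| ≤ ℓ s(u, v))
    {a b : V} (w : K.Walk a b) : ∀ z ∈ w.support, |f z - f a| ≤ (w.edges.map ℓ).sum := by
  induction w with
  | nil => intro z hz; simp at hz; simp [hz]
  | @cons a c b h p ih =>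
    intro z hz
    rw [SimpleGraph.Walk.support_cons, List.mem_cons] at hz
    rw [SimpleGraph.Walk.edges_cons, List.map_cons, List.sum_cons]
    have h0 := sum_nonneg_walk hℓ p
    have h1 : 0 < ℓ s(a, c) := hℓ _ ((SimpleGraph.mem_edgeSet K).2 h)
    have h2 := hf a c h
    rcases hz with rfl | hz
    · rw [sub_self, abs_zero]; linarith
    · have h3 := ih z hz
      rw [abs_le] at h2 h3 ⊢
      constructor <;> linarith [h2.1, h2.2, h3.1, h3.2]

theorem slab_eq {V : Type} {f : V → ℝ} {Δ θ t : ℝ} (hΔ : 0 < Δ) {u z : V}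
    (h : ⌊(f u - t + θ) / Δ⌋ = ⌊(f u + t + θ) / Δ⌋) (hz : |f z - f u| ≤ t) :
    slab f Δ θ z = ⌊(f u - t + θ) / Δ⌋ := by
  rw [abs_le] at hz
  apply le_antisymm
  · rw [h]
    unfold slab
    gcongr
    linarith [hz.2]
  · unfold slab
    gcongr
    linarith [hz.1]

/-- a walk of length at most `t` survives a chop which does not cut the interval -/
theorem chop_walk {V : Type} {K : SimpleGraph V} {ℓ : Sym2 V → ℝ} {f : V → ℝ} {Δ θ t : ℝ}
    (hℓ : ∀ e ∈ K.edgeSet, 0 < ℓ e) (hf : ∀ u v, K.Adj u v → |f u - f v| ≤ ℓ s(u, v))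
    (hΔ : 0 < Δ) {u v : V} (h : ⌊(f u - t + θ) / Δ⌋ = ⌊(f u + t + θ) / Δ⌋)
    (hw : ∃ w : K.Walk u v, (w.edges.map ℓ).sum ≤ t) :
    ∃ w : (chop K f Δ θ).Walk u v, (w.edges.map ℓ).sum ≤ t := by
  obtain ⟨w, hw⟩ := hw
  have hs : ∀ z ∈ w.support, slab f Δ θ z = ⌊(f u - t + θ) / Δ⌋ := fun z hz =>
    slab_eq hΔ h ((lip_support hℓ hf w z hz).trans hw)
  have he : ∀ e ∈ w.edges, e ∈ (chop K f Δ θ).edgeSet := by
    intro e he
    induction e using Sym2.ind with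
    | _ x y =>
      have h1 : K.Adj x y := w.adj_of_mem_edges he
      have h2 := hs x (w.fst_mem_support_of_mem_edges he)
      have h3 := hs y (w.snd_mem_support_of_mem_edges he)
      exact (⟨h1, h2.trans h3.symm⟩ : (chop K f Δ θ).Adj x y)
  exact ⟨w.transfer _ he, by rw [SimpleGraph.Walk.edges_transfer]; exact hw⟩

theorem rowPad (h2 : RowPot) (h3 : RowCount) (h5 : RowDiam) : RowPad := by
  intro V _ G ℓ hc hP hℓ Δ N hΔ hN
  classical
  have hH : short G ℓ Δ ≤ G := fun _ _ h => h.1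
  have hpos : ∀ {K : SimpleGraph V}, K ≤ G → ∀ e ∈ K.edgeSet, 0 < ℓ e := fun hK e he =>
    hℓ e (SimpleGraph.edgeSet_mono hK he)
  have hch : ∀ (K : SimpleGraph V) (f : V → ℝ) (θ : ℝ), chop K f Δ θ ≤ K :=
    fun K f θ _ _ h => h.1
  obtain ⟨f₁, r₁, p₁⟩ := h2 V (short G ℓ Δ) ℓ (hpos hH)
  have e2 : ∀ a : Fin N, ∃ f r, Pot (chop (short G ℓ Δ) f₁ Δ ((a : ℕ) * Δ / N)) ℓ f r :=
    fun a => h2 V _ ℓ (hpos ((hch _ _ _).trans hH))
  choose f₂ r₂ p₂ using e2
  have e3 : ∀ a b : Fin N, ∃ f r, Pot (chop (chop (short G ℓ Δ) f₁ Δ ((a : ℕ) * Δ / N)) (f₂ a) Δ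
      ((b : ℕ) * Δ / N)) ℓ f r :=
    fun a b => h2 V _ ℓ (hpos ((hch _ _ _).trans ((hch _ _ _).trans hH)))
  choose f₃ r₃ p₃ using e3
  let K : Fin N × Fin N × Fin N → SimpleGraph V := fun ω =>
    chop (chop (chop (short G ℓ Δ) f₁ Δ ((ω.1 : ℕ) * Δ / N)) (f₂ ω.1) Δ ((ω.2.1 : ℕ) * Δ / N))
      (f₃ ω.1 ω.2.1) Δ ((ω.2.2 : ℕ) * Δ / N)
  have hout : ∀ ω v, (K ω).connectedComponentMk (Quot.out ((K ω).connectedComponentMk v)) =
      (K ω).connectedComponentMk v := fun ω v => Quot.out_eq _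
  refine ⟨fun ω v => Quot.out ((K ω).connectedComponentMk v), ?_, ?_⟩
  · intro ω u v huv
    have hr : (K ω).Reachable u v := by
      apply SimpleGraph.ConnectedComponent.exact
      have h1 := hout ω u
      have h2 := hout ω v
      have h3 : Quot.out ((K ω).connectedComponentMk u) =
        Quot.out ((K ω).connectedComponentMk v) := huv
      rw [← h1, ← h2, h3]
    exact h5 V G (short G ℓ Δ) ℓ Δ _ _ _ f₁ (f₂ ω.1) (f₃ ω.1 ω.2.1) r₁ (r₂ ω.1) (r₃ ω.1 ω.2.1)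
      hc hP hℓ hH hΔ (fun _ _ h => h.2) p₁ (p₂ _) (p₃ _ _) u v hr
  · intro u t ht
    have hNR : (0 : ℝ) < N := by exact_mod_cast hN
    by_cases hs : 2 * t ≤ Δ
    · have hcnt : ∀ g : ℝ,
          ∑ k : Fin N, (if ⌊(g - t + (k : ℕ) * Δ / N) / Δ⌋ ≠ ⌊(g + t + (k : ℕ) * Δ / N) / Δ⌋
            then (1 : ℝ) else 0) ≤ N * (2 * t) / Δ + 1 := by
        intro g
        have := h3 (g - t) (g + t) (2 * t) Δ N
          (by rw [show g - t - (g + t) = -(2 * t) by ring, abs_neg, abs_of_nonneg (by linarith)])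
          hΔ hN
        rw [ncard_sum] at this
        exact this
      set q : ℝ := N * (2 * t) / Δ + 1 with hq
      have hq0 : 0 ≤ q := by positivity
      have walk0 : ∀ v, pathDist G ℓ u v ≤ t →
          ∃ w : (short G ℓ Δ).Walk u v, (w.edges.map ℓ).sum ≤ t := by
        intro v hv
        obtain ⟨w, hw⟩ := exists_geodesic hc hℓ u v
        have hwt : (w.edges.map ℓ).sum ≤ t := hw.le.trans hv
        have he : ∀ e ∈ w.edges, e ∈ (short G ℓ Δ).edgeSet := by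
          intro e he
          have h1 : ℓ e ≤ (w.edges.map ℓ).sum := by
            refine List.single_le_sum ?_ _ (List.mem_map_of_mem he)
            intro x hx
            obtain ⟨e', he', rfl⟩ := List.mem_map.1 hx
            exact (hℓ e' (w.edges_subset_edgeSet he')).le
          induction e using Sym2.ind with
          | _ x y =>
            exact (⟨w.adj_of_mem_edges he, by linarith⟩ : (short G ℓ Δ).Adj x y)
        exact ⟨w.transfer _ he, by rw [SimpleGraph.Walk.edges_transfer]; exact hwt⟩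
      have key : ∀ ω : Fin N × Fin N × Fin N,
          (if (∃ v, pathDist G ℓ u v ≤ t ∧ Quot.out ((K ω).connectedComponentMk u) ≠
            Quot.out ((K ω).connectedComponentMk v)) then (1 : ℝ) else 0) ≤
          (if ⌊(f₁ u - t + (ω.1 : ℕ) * Δ / N) / Δ⌋ ≠ ⌊(f₁ u + t + (ω.1 : ℕ) * Δ / N) / Δ⌋
            then (1 : ℝ) else 0) +
          (if ⌊(f₂ ω.1 u - t + (ω.2.1 : ℕ) * Δ / N) / Δ⌋ ≠
            ⌊(f₂ ω.1 u + t + (ω.2.1 : ℕ) * Δ / N) / Δ⌋ then (1 : ℝ) else 0) +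
          (if ⌊(f₃ ω.1 ω.2.1 u - t + (ω.2.2 : ℕ) * Δ / N) / Δ⌋ ≠
            ⌊(f₃ ω.1 ω.2.1 u + t + (ω.2.2 : ℕ) * Δ / N) / Δ⌋ then (1 : ℝ) else 0) := by
        intro ω
        have n0 : (if (∃ v, pathDist G ℓ u v ≤ t ∧ Quot.out ((K ω).connectedComponentMk u) ≠
            Quot.out ((K ω).connectedComponentMk v)) then (1 : ℝ) else 0) ≤ 1 := by
          split_ifs <;> norm_num
        have n1 : (0 : ℝ) ≤ (if ⌊(f₁ u - t + (ω.1 : ℕ) * Δ / N) / Δ⌋ ≠
            ⌊(f₁ u + t + (ω.1 : ℕ) * Δ / N) / Δ⌋ then (1 : ℝ) else 0) := by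
          split_ifs <;> norm_num
        have n2 : (0 : ℝ) ≤ (if ⌊(f₂ ω.1 u - t + (ω.2.1 : ℕ) * Δ / N) / Δ⌋ ≠
            ⌊(f₂ ω.1 u + t + (ω.2.1 : ℕ) * Δ / N) / Δ⌋ then (1 : ℝ) else 0) := by
          split_ifs <;> norm_num
        have n3 : (0 : ℝ) ≤ (if ⌊(f₃ ω.1 ω.2.1 u - t + (ω.2.2 : ℕ) * Δ / N) / Δ⌋ ≠
            ⌊(f₃ ω.1 ω.2.1 u + t + (ω.2.2 : ℕ) * Δ / N) / Δ⌋ then (1 : ℝ) else 0) := by
          split_ifs <;> norm_num
        by_cases c1 : ⌊(f₁ u - t + (ω.1 : ℕ) * Δ / N) / Δ⌋ = ⌊(f₁ u + t + (ω.1 : ℕ) * Δ / N) / Δ⌋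
        swap
        · have : (if ⌊(f₁ u - t + (ω.1 : ℕ) * Δ / N) / Δ⌋ ≠
            ⌊(f₁ u + t + (ω.1 : ℕ) * Δ / N) / Δ⌋ then (1 : ℝ) else 0) = 1 := if_pos c1
          linarith
        by_cases c2 : ⌊(f₂ ω.1 u - t + (ω.2.1 : ℕ) * Δ / N) / Δ⌋ =
            ⌊(f₂ ω.1 u + t + (ω.2.1 : ℕ) * Δ / N) / Δ⌋
        swap
        · have : (if ⌊(f₂ ω.1 u - t + (ω.2.1 : ℕ) * Δ / N) / Δ⌋ ≠
            ⌊(f₂ ω.1 u + t + (ω.2.1 : ℕ) * Δ / N) / Δ⌋ then (1 : ℝ) else 0) = 1 := if_pos c2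
          linarith
        by_cases c3 : ⌊(f₃ ω.1 ω.2.1 u - t + (ω.2.2 : ℕ) * Δ / N) / Δ⌋ =
            ⌊(f₃ ω.1 ω.2.1 u + t + (ω.2.2 : ℕ) * Δ / N) / Δ⌋
        swap
        · have : (if ⌊(f₃ ω.1 ω.2.1 u - t + (ω.2.2 : ℕ) * Δ / N) / Δ⌋ ≠
            ⌊(f₃ ω.1 ω.2.1 u + t + (ω.2.2 : ℕ) * Δ / N) / Δ⌋ then (1 : ℝ) else 0) = 1 :=
            if_pos c3
          linarith
        rw [if_neg]
        · linarith
        · rintro ⟨v, hv, hne⟩
          apply hne
          obtain ⟨w, -⟩ := chop_walk (hpos ((hch _ _ _).trans ((hch _ _ _).trans hH)))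
            (p₃ ω.1 ω.2.1).lip hΔ c3 (chop_walk (hpos ((hch _ _ _).trans hH)) (p₂ ω.1).lip hΔ c2
              (chop_walk (hpos hH) p₁.lip hΔ c1 (walk0 v hv)))
          have hcc : (K ω).connectedComponentMk u = (K ω).connectedComponentMk v :=
            SimpleGraph.ConnectedComponent.sound w.reachable
          rw [hcc]
      have hsum : (({ω | ∃ v, pathDist G ℓ u v ≤ t ∧ Quot.out ((K ω).connectedComponentMk u) ≠
          Quot.out ((K ω).connectedComponentMk v)} : Set (Fin N × Fin N × Fin N)).ncard : ℝ) ≤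
          3 * (N : ℝ) ^ 2 * q := by
        rw [ncard_sum]
        refine (Finset.sum_le_sum fun ω _ => key ω).trans ?_
        rw [Finset.sum_add_distrib, Finset.sum_add_distrib]
        simp only [Fintype.sum_prod_type]
        have s1 : ∑ a : Fin N, ∑ _b : Fin N, ∑ _c : Fin N,
            (if ⌊(f₁ u - t + (a : ℕ) * Δ / N) / Δ⌋ ≠ ⌊(f₁ u + t + (a : ℕ) * Δ / N) / Δ⌋
              then (1 : ℝ) else 0) ≤ (N : ℝ) ^ 2 * q := by
          simp only [Finset.sum_const, Finset.card_univ, Fintype.card_fin, nsmul_eq_mul]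
          rw [← Finset.mul_sum, ← Finset.mul_sum]
          have := hcnt (f₁ u)
          nlinarith [mul_le_mul_of_nonneg_left this (by positivity : (0 : ℝ) ≤ N * N)]
        have s2 : ∑ a : Fin N, ∑ b : Fin N, ∑ _c : Fin N,
            (if ⌊(f₂ a u - t + (b : ℕ) * Δ / N) / Δ⌋ ≠ ⌊(f₂ a u + t + (b : ℕ) * Δ / N) / Δ⌋
              then (1 : ℝ) else 0) ≤ (N : ℝ) ^ 2 * q := by
          have : ∀ a : Fin N, ∑ b : Fin N, ∑ _c : Fin N,
            (if ⌊(f₂ a u - t + (b : ℕ) * Δ / N) / Δ⌋ ≠ ⌊(f₂ a u + t + (b : ℕ) * Δ / N) / Δ⌋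
              then (1 : ℝ) else 0) ≤ N * q := by
            intro a
            simp only [Finset.sum_const, Finset.card_univ, Fintype.card_fin, nsmul_eq_mul]
            rw [← Finset.mul_sum]
            exact mul_le_mul_of_nonneg_left (hcnt (f₂ a u)) hNR.le
          refine (Finset.sum_le_sum fun a _ => this a).trans ?_
          simp only [Finset.sum_const, Finset.card_univ, Fintype.card_fin, nsmul_eq_mul]
          nlinarith
        have s3 : ∑ a : Fin N, ∑ b : Fin N, ∑ c : Fin N,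
            (if ⌊(f₃ a b u - t + (c : ℕ) * Δ / N) / Δ⌋ ≠ ⌊(f₃ a b u + t + (c : ℕ) * Δ / N) / Δ⌋
              then (1 : ℝ) else 0) ≤ (N : ℝ) ^ 2 * q := by
          refine (Finset.sum_le_sum fun a _ => Finset.sum_le_sum fun b _ =>
            hcnt (f₃ a b u)).trans ?_
          simp only [Finset.sum_const, Finset.card_univ, Fintype.card_fin, nsmul_eq_mul]
          nlinarith
        linarith
      refine hsum.trans (le_of_eq ?_)
      rw [hq]
      field_simp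
    · push Not at hs
      have h1 : (({ω | ∃ v, pathDist G ℓ u v ≤ t ∧ Quot.out ((K ω).connectedComponentMk u) ≠
          Quot.out ((K ω).connectedComponentMk v)} : Set (Fin N × Fin N × Fin N)).ncard : ℝ) ≤
          (N : ℝ) ^ 3 := by
        have := Set.ncard_le_card ({ω | ∃ v, pathDist G ℓ u v ≤ t ∧
          Quot.out ((K ω).connectedComponentMk u) ≠
          Quot.out ((K ω).connectedComponentMk v)} : Set (Fin N × Fin N × Fin N))
        rw [Nat.card_eq_fintype_card, Fintype.card_prod, Fintype.card_prod, Fintype.card_fin] at this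
        calc _ ≤ ((N * (N * N) : ℕ) : ℝ) := by exact_mod_cast this
          _ = (N : ℝ) ^ 3 := by push_cast; ring
      refine h1.trans ?_
      have h2 : 1 ≤ 2 * t / Δ := by rw [le_div_iff₀ hΔ]; linarith
      have h3 : (0 : ℝ) ≤ 1 / N := by positivity
      nlinarith [pow_pos hNR 3]

end Vale.Agent.P235.R2.H721
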