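import Vale.Agent.P235.R2.H721.UniLog
import Vale.Agent.P235.R2.H721.KprPad
import Vale.Agent.P235.R2.H582.KprAll
import Vale.Agent.P235.R2.H718.Var
import Vale.Agent.P235.R2.H347.UniZ1
import Vale.Agent.P235.R2.H611.UniZ2
import Vale.Agent.P235.R2.H341.One

/-!
P235 (helper721).  The union of `m` sets of distortion `B` in a plane graph has distortion at most
`C B log (m + 2)`; no hypothesis is left.
-/

set_option autoImplicit false

namespace Vale.Agent.P235.R2.H721

open Vale.Agent.P235 Vale.Agent.P235.Kpr

theorem pad : RowPad := rowPad rowPot rowCount (Kpr.rowDiam rowMinor rowStage)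

/-- **The union of `m` sets of distortion at most `B` in a plane graph has distortion at most
`C B log (m + 2)`.** -/
theorem unionLog : RowUnion :=
  rowUnion retr (rowVar pad) Vale.Agent.P235.H347K.rowRec rowFirst rowOne

end Vale.Agent.P235.R2.H721
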